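import Vale.Agent.Lib.P331.Main

/-! # P331: direct sums: thresholds computed block by block -/

namespace Vale.Agent.Lib.P331

open MeasureTheory
open scoped NNReal ENNReal

variable {E : Type} [Fintype E] [DecidableEq E]

/-- the restriction of `M` to the block with label `j` -/
def blkM (M : Matroid E) (blk : E → ℕ) (j : ℕ) : Matroid E := M.restrict {e | blk e = j}

/-- `M` is the direct sum of its restrictions to the blocks of `blk`: a set is independent as soon as
its intersection with every block is independent. -/
def IsBlockSum (M : Matroid E) (blk : E → ℕ) : Prop :=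
  ∀ I : Set E, (∀ j, M.Indep (I ∩ {e | blk e = j})) → M.Indep I

/-- the set of labels in use -/
def labels (blk : E → ℕ) : Finset ℕ := Finset.univ.image blk

/-- The block rule: draw `i` uniformly in `{0,…,L}`, wish every non-loop whose value exceeds
(largest sample of a non-loop of the same block) `/ 2 ^ i`. -/
noncomputable def thrRuleB (M : Matroid E) (blk : E → ℕ) (L : ℕ) : Rule E where
  Seed := Fin (L + 1)
  mSeed := ⊤
  law := ((L : ℝ≥0∞) + 1)⁻¹ • Measure.count
  prob := (thrRule M L).prob
  dec := fun i s _ e x =>
    decide (thr i (eff (blkM M blk (blk e)) s) < eff (blkM M blk (blk e)) x e)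
  meas := fun past e => (thrRule (blkM M blk (blk e)) L).meas past e

end Vale.Agent.Lib.P331
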