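import Vale.Agent.Lib.P331.Blk.Defs

/-! # P331: the optimum is at most the sum of the optima of the blocks -/

namespace Vale.Agent.Lib.P331

open MeasureTheory
open scoped NNReal ENNReal

variable {E : Type} [Fintype E] [DecidableEq E]

theorem opt_le_sum_blk (M : Matroid E) (blk : E → ℕ) (v : E → ℝ≥0) :
    opt M v ≤ ∑ j ∈ labels blk, opt (blkM M blk j) v := by
  classical
  refine opt_le M v _ (fun I hI => ?_)
  have hmaps : ∀ e ∈ I, blk e ∈ labels blk := by
    intro e _
    unfold labels
    exact Finset.mem_image_of_mem blk (Finset.mem_univ e)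
  rw [← Finset.sum_fiberwise_of_maps_to hmaps (fun e => v e)]
  refine Finset.sum_le_sum (fun j _ => ?_)
  refine sum_le_opt (blkM M blk j) v ?_
  unfold blkM
  rw [Matroid.restrict_indep_iff]
  refine ⟨hI.subset ?_, ?_⟩
  · exact_mod_cast Finset.filter_subset _ I
  · intro e he
    have he' : e ∈ I.filter (fun e => blk e = j) := by exact_mod_cast he
    exact (Finset.mem_filter.mp he').2

end Vale.Agent.Lib.P331
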