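import Vale.Agent.Lib.P331.Blk.Part
import Vale.Agent.Lib.P331.Blk.OptSum

/-! # P331: the block rule is `1 / (18 (L+1))`-competitive when every block has rank `≤ 2 ^ L` -/

namespace Vale.Agent.Lib.P331

open MeasureTheory
open scoped NNReal ENNReal

variable {E : Type} [Fintype E] [DecidableEq E]

theorem measurable_LBEff (M : Matroid E) (i : ℕ) :
    Measurable (fun q : (E → ℝ≥0) × (E → ℝ≥0) =>
      ((LB M i (eff M q.1) (eff M q.2) : ℝ≥0) : ℝ≥0∞)) :=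
  ((measurable_LB M i).comp (((measurable_eff M).comp measurable_fst).prodMk
    ((measurable_eff M).comp measurable_snd))).coe_nnreal_ennreal

theorem sum_lintegral_LB (M : Matroid E) (L : ℕ) (Q : Measure ((E → ℝ≥0) × (E → ℝ≥0))) :
    ∑ i : Fin (L + 1), ∫⁻ q, ((LB M (i : ℕ) (eff M q.1) (eff M q.2) : ℝ≥0) : ℝ≥0∞) ∂Q
      = ∫⁻ p, (Phi M L (eff M p.1, eff M p.2) : ℝ≥0∞) ∂Q := by
  have hm : ∀ i ∈ (Finset.univ : Finset (Fin (L + 1))), Measurable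
      (fun q : (E → ℝ≥0) × (E → ℝ≥0) =>
        ((LB M (i : ℕ) (eff M q.1) (eff M q.2) : ℝ≥0) : ℝ≥0∞)) :=
    fun i _ => measurable_LBEff M (i : ℕ)
  rw [← lintegral_finsetSum _ hm]
  refine lintegral_congr (fun q => ?_)
  unfold Phi
  rw [ENNReal.ofNNReal_finsetSum, ← Fin.sum_univ_eq_sum_range
    (fun i => ((LB M i (eff M q.1) (eff M q.2) : ℝ≥0) : ℝ≥0∞))]

theorem thrRuleB_competitive (M : Matroid E) (blk : E → ℕ) (hsum : IsBlockSum M blk) (L : ℕ)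
    (hL1 : 1 ≤ L) (hL : ∀ j, (blkM M blk j).eRank.toNat ≤ 2 ^ L) :
    Competitive M (thrRuleB M blk L) (1 / (18 * ((L : ℝ≥0∞) + 1))) := by
  intro D hD _ adv
  set Q := (Measure.pi D).prod (Measure.pi D) with hQ
  -- pointwise lower bound
  have hlow : ∫⁻ p, (∑ j ∈ labels blk, ((LB (blkM M blk j) (Fin.val (n := L + 1) p.1)
        (eff (blkM M blk j) p.2.1) (eff (blkM M blk j) p.2.2) : ℝ≥0) : ℝ≥0∞))
        ∂((thrRuleB M blk L).law.prod Q) ≤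
      ∫⁻ p, ((∑ e ∈ run M (thrRuleB M blk L) p.1 p.2.1 p.2.2 (adv.order p.1 p.2.1 p.2.2),
        p.2.2 e : ℝ≥0) : ℝ≥0∞) ∂((thrRuleB M blk L).law.prod Q) := by
    refine lintegral_mono (fun p => ?_)
    have h := sum_LB_le_algB M blk hsum L p.1 p.2.1 p.2.2 _ (adv.complete p.1 p.2.1 p.2.2)
    have h' := ENNReal.coe_le_coe.mpr h
    rw [ENNReal.ofNNReal_finsetSum] at h'
    exact h'
  refine le_trans ?_ hlow
  have hs := lintegral_seed L Q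
    (fun i q => ∑ j ∈ labels blk, ((LB (blkM M blk j) (i : ℕ)
        (eff (blkM M blk j) q.1) (eff (blkM M blk j) q.2) : ℝ≥0) : ℝ≥0∞))
    (fun i => Finset.measurable_fun_sum _ (fun j _ => measurable_LBEff (blkM M blk j) (i : ℕ)))
  have hs' : ∫⁻ p, (∑ j ∈ labels blk, ((LB (blkM M blk j) (Fin.val (n := L + 1) p.1)
        (eff (blkM M blk j) p.2.1) (eff (blkM M blk j) p.2.2) : ℝ≥0) : ℝ≥0∞))
        ∂((thrRuleB M blk L).law.prod Q) = ((L : ℝ≥0∞) + 1)⁻¹ *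
        ∑ i : Fin (L + 1), ∫⁻ q, (∑ j ∈ labels blk, ((LB (blkM M blk j) (i : ℕ)
        (eff (blkM M blk j) q.1) (eff (blkM M blk j) q.2) : ℝ≥0) : ℝ≥0∞)) ∂Q := hs
  rw [hs']
  have hsw : ∑ i : Fin (L + 1), ∫⁻ q, (∑ j ∈ labels blk, ((LB (blkM M blk j) (i : ℕ)
        (eff (blkM M blk j) q.1) (eff (blkM M blk j) q.2) : ℝ≥0) : ℝ≥0∞)) ∂Q
      = ∑ j ∈ labels blk, ∫⁻ p, (Phi (blkM M blk j) L
          (eff (blkM M blk j) p.1, eff (blkM M blk j) p.2) : ℝ≥0∞) ∂Q := by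
    have h1 : ∀ i : Fin (L + 1), ∫⁻ q, (∑ j ∈ labels blk, ((LB (blkM M blk j) (i : ℕ)
        (eff (blkM M blk j) q.1) (eff (blkM M blk j) q.2) : ℝ≥0) : ℝ≥0∞)) ∂Q
        = ∑ j ∈ labels blk, ∫⁻ q, ((LB (blkM M blk j) (i : ℕ)
        (eff (blkM M blk j) q.1) (eff (blkM M blk j) q.2) : ℝ≥0) : ℝ≥0∞) ∂Q :=
      fun i => lintegral_finsetSum _ (fun j _ => measurable_LBEff (blkM M blk j) (i : ℕ))
    simp only [h1]
    rw [Finset.sum_comm]
    exact Finset.sum_congr rfl (fun j _ => sum_lintegral_LB (blkM M blk j) L Q)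
  rw [hsw]
  -- the optimum
  have hopt : ∫⁻ v, (opt M v : ℝ≥0∞) ∂(Measure.pi D) ≤
      18 * ∑ j ∈ labels blk, ∫⁻ p, (Phi (blkM M blk j) L
          (eff (blkM M blk j) p.1, eff (blkM M blk j) p.2) : ℝ≥0∞) ∂Q := by
    calc ∫⁻ v, (opt M v : ℝ≥0∞) ∂(Measure.pi D)
        ≤ ∫⁻ v, (∑ j ∈ labels blk, (opt (blkM M blk j) v : ℝ≥0∞)) ∂(Measure.pi D) := by
          refine lintegral_mono (fun v => ?_)
          have h := ENNReal.coe_le_coe.mpr (opt_le_sum_blk M blk v)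
          rw [ENNReal.ofNNReal_finsetSum] at h
          exact h
      _ = ∑ j ∈ labels blk, ∫⁻ v, (opt (blkM M blk j) v : ℝ≥0∞) ∂(Measure.pi D) :=
          lintegral_finsetSum _ (fun j _ => (measurable_opt (blkM M blk j)).coe_nnreal_ennreal)
      _ ≤ ∑ j ∈ labels blk, 18 * ∫⁻ p, (Phi (blkM M blk j) L
          (eff (blkM M blk j) p.1, eff (blkM M blk j) p.2) : ℝ≥0∞) ∂Q :=
          Finset.sum_le_sum (fun j _ => expect_opt_le (blkM M blk j) L hL1 (hL j) D)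
      _ = 18 * ∑ j ∈ labels blk, ∫⁻ p, (Phi (blkM M blk j) L
          (eff (blkM M blk j) p.1, eff (blkM M blk j) p.2) : ℝ≥0∞) ∂Q := by
          rw [Finset.mul_sum]
  set X := ∑ j ∈ labels blk, ∫⁻ p, (Phi (blkM M blk j) L
          (eff (blkM M blk j) p.1, eff (blkM M blk j) p.2) : ℝ≥0∞) ∂Q with hX
  calc 1 / (18 * ((L : ℝ≥0∞) + 1)) * ∫⁻ v, (opt M v : ℝ≥0∞) ∂(Measure.pi D)
      ≤ 1 / (18 * ((L : ℝ≥0∞) + 1)) * (18 * X) := by gcongr
    _ = ((L : ℝ≥0∞) + 1)⁻¹ * X := by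
        rw [one_div, ENNReal.mul_inv (Or.inl (by norm_num)) (Or.inl (by finiteness)), ← mul_assoc,
          mul_right_comm (18 : ℝ≥0∞)⁻¹, ENNReal.inv_mul_cancel (by norm_num) (by finiteness),
          one_mul]

end Vale.Agent.Lib.P331
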