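import Vale.Agent.Lib.P331.Blk.Run

/-! # P331: the gain of the block rule, block by block -/

namespace Vale.Agent.Lib.P331

open MeasureTheory
open scoped NNReal ENNReal

variable {E : Type} [Fintype E] [DecidableEq E]

/-- abstract form: `A` is a maximal independent subset of the elements above their block threshold;
then the part of `A` in block `j` collects at least the lower bound of the block matroid. -/
theorem LB_le_part (M : Matroid E) (blk : E → ℕ) (hsum : IsBlockSum M blk) (i : ℕ)
    (s v : E → ℝ≥0) (A : Finset E) (hA : M.Indep (A : Set E))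
    (hAU : ∀ e ∈ A, thr i (eff (blkM M blk (blk e)) s) < eff (blkM M blk (blk e)) v e)
    (hmax : ∀ e, thr i (eff (blkM M blk (blk e)) s) < eff (blkM M blk (blk e)) v e → e ∉ A →
      ¬ M.Indep ((insert e A : Finset E) : Set E)) (j : ℕ) :
    LB (blkM M blk j) i (eff (blkM M blk j) s) (eff (blkM M blk j) v)
      ≤ ∑ e ∈ A.filter (fun e => blk e = j), v e := by
  have hind : ∀ I : Set E, (blkM M blk j).Indep I ↔ M.Indep I ∧ I ⊆ {e | blk e = j} := by
    intro I
    unfold blkM
    exact Matroid.restrict_indep_iff
  have hAj : (blkM M blk j).Indep ((A.filter (fun e => blk e = j) : Finset E) : Set E) := by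
    rw [hind]
    refine ⟨hA.subset ?_, ?_⟩
    · intro e he
      exact Finset.mem_coe.2 (Finset.mem_filter.1 (Finset.mem_coe.1 he)).1
    · intro e he
      exact (Finset.mem_filter.1 (Finset.mem_coe.1 he)).2
  have hAUj : ∀ e ∈ A.filter (fun e => blk e = j),
      thr i (eff (blkM M blk j) s) < eff (blkM M blk j) v e := by
    intro e he
    obtain ⟨heA, hbe⟩ := Finset.mem_filter.1 he
    have h := hAU e heA
    rw [hbe] at h
    exact h
  have hmaxj : ∀ e, thr i (eff (blkM M blk j) s) < eff (blkM M blk j) v e →
      e ∉ A.filter (fun e => blk e = j) →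
      ¬ (blkM M blk j).Indep ((insert e (A.filter (fun e => blk e = j)) : Finset E) : Set E) := by
    intro e h heAj hins
    have hne : eff (blkM M blk j) v e ≠ 0 := by
      intro h0
      rw [h0] at h
      exact absurd h (not_lt.2 zero_le)
    have hsing : (blkM M blk j).Indep {e} := by
      by_contra hc
      apply hne
      unfold eff
      rw [if_neg hc]
    have hbe : blk e = j := ((hind _).1 hsing).2 (Set.mem_singleton e)
    have heA : e ∉ A := fun hc => heAj (Finset.mem_filter.2 ⟨hc, hbe⟩)
    have hdep := hmax e (by rw [hbe]; exact h) heA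
    apply hdep
    apply hsum
    intro j'
    by_cases hj : j' = j
    · subst hj
      refine ((hind _).1 hins).1.subset ?_
      rintro x ⟨hx1, hx2⟩
      have hx1' : x ∈ insert e A := Finset.mem_coe.1 hx1
      apply Finset.mem_coe.2
      rcases Finset.mem_insert.1 hx1' with rfl | hxA
      · exact Finset.mem_insert_self _ _
      · exact Finset.mem_insert_of_mem (Finset.mem_filter.2 ⟨hxA, hx2⟩)
    · refine hA.subset ?_
      rintro x ⟨hx1, hx2⟩
      have hx1' : x ∈ insert e A := Finset.mem_coe.1 hx1
      rcases Finset.mem_insert.1 hx1' with rfl | hxA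
      · exact absurd (hx2.symm.trans hbe) hj
      · exact Finset.mem_coe.2 hxA
  have hs : ∑ e ∈ A.filter (fun e => blk e = j), v e
      = ∑ e ∈ A.filter (fun e => blk e = j), eff (blkM M blk j) v e := by
    apply Finset.sum_congr rfl
    intro e he
    have h1 : (blkM M blk j).Indep {e} := hAj.subset (by simpa using he)
    unfold eff
    rw [if_pos h1]
  rw [hs]
  unfold LB
  split_ifs with h0
  · have h1 : thr i (eff (blkM M blk j) s) = mx (eff (blkM M blk j) s) := by
      rw [h0]
      simp [thr]
    rw [h1] at hAUj hmaxj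
    refine LB0_le (blkM M blk j) (fun e he => ?_) hAUj hmaxj
    unfold eff
    rw [if_neg he]
  · exact opt_wv_le (blkM M blk j) hAj hAUj hmaxj

theorem sum_LB_le_algB (M : Matroid E) (blk : E → ℕ) (hsum : IsBlockSum M blk) (L : ℕ)
    (i : Fin (L + 1)) (s v : E → ℝ≥0) (order : List E) (hc : ∀ e, e ∈ order) :
    ∑ j ∈ labels blk, LB (blkM M blk j) i (eff (blkM M blk j) s) (eff (blkM M blk j) v)
      ≤ ∑ e ∈ run M (thrRuleB M blk L) i s v order, v e := by
  obtain ⟨hA, hAU, hmax⟩ := run_specB M blk L i s v order hc
  calc ∑ j ∈ labels blk, LB (blkM M blk j) i (eff (blkM M blk j) s) (eff (blkM M blk j) v)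
      ≤ ∑ j ∈ labels blk,
          ∑ e ∈ (run M (thrRuleB M blk L) i s v order).filter (fun e => blk e = j), v e :=
        Finset.sum_le_sum fun j _ => LB_le_part M blk hsum i s v _ hA hAU hmax j
    _ = ∑ e ∈ run M (thrRuleB M blk L) i s v order, v e :=
        Finset.sum_fiberwise_of_maps_to
          (fun e _ => Finset.mem_image_of_mem blk (Finset.mem_univ e)) _

end Vale.Agent.Lib.P331
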