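import Vale.Agent.Lib.P331.Blk.Defs

/-! # P331: the run of the block rule -/

namespace Vale.Agent.Lib.P331

open MeasureTheory
open scoped NNReal ENNReal

variable {E : Type} [Fintype E] [DecidableEq E]

/-- the invariant of the run of a rule wishing exactly the elements with property `Q` -/
def GInvB (M : Matroid E) (Q : E → Prop) (P : E → Prop) (A : Finset E) : Prop :=
  M.Indep (A : Set E) ∧ (∀ e ∈ A, Q e) ∧
    (∀ e, P e → Q e → e ∉ A → ¬ M.Indep ((insert e A : Finset E) : Set E))

theorem ginvB_step (M : Matroid E) (blk : E → ℕ) (L : ℕ) (i : Fin (L + 1)) (s v : E → ℝ≥0)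
    (P : E → Prop) (st : List E × Finset E) (e : E)
    (h : GInvB M (fun e => thr i (eff (blkM M blk (blk e)) s) < eff (blkM M blk (blk e)) v e)
      P st.2) :
    GInvB M (fun e => thr i (eff (blkM M blk (blk e)) s) < eff (blkM M blk (blk e)) v e)
      (fun x => P x ∨ x = e) (step M (thrRuleB M blk L) i s v st e).2 := by
  obtain ⟨h1, h2, h3⟩ := h
  have hdec : ((thrRuleB M blk L).dec i s st.1 e (mask (e :: st.1) v) = true) ↔
      thr i (eff (blkM M blk (blk e)) s) < eff (blkM M blk (blk e)) v e := by
    show decide (thr i (eff (blkM M blk (blk e)) s)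
      < eff (blkM M blk (blk e)) (mask (e :: st.1) v) e) = true ↔ _
    rw [eff_mask_self, decide_eq_true_iff]
  unfold step
  by_cases hc : (thrRuleB M blk L).dec i s st.1 e (mask (e :: st.1) v) = true ∧
      M.Indep ((insert e st.2 : Finset E) : Set E)
  · simp only [if_pos hc]
    refine ⟨hc.2, ?_, ?_⟩
    · intro x hx
      rcases Finset.mem_insert.mp hx with rfl | hx
      · exact hdec.mp hc.1
      · exact h2 x hx
    · intro x hP hx hxA hI
      have hxe : x ≠ e := fun h => hxA (h ▸ Finset.mem_insert_self _ _)
      have hxA' : x ∉ st.2 := fun h => hxA (Finset.mem_insert_of_mem h)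
      have hPx : P x := hP.resolve_right hxe
      refine h3 x hPx hx hxA' (hI.subset ?_)
      exact_mod_cast Finset.insert_subset_insert x (Finset.subset_insert e st.2)
  · simp only [if_neg hc]
    refine ⟨h1, h2, ?_⟩
    intro x hP hx hxA hI
    rcases hP with hP | rfl
    · exact h3 x hP hx hxA hI
    · exact hc ⟨hdec.mpr hx, hI⟩

theorem ginvB_foldl (M : Matroid E) (blk : E → ℕ) (L : ℕ) (i : Fin (L + 1)) (s v : E → ℝ≥0)
    (l : List E) :
    ∀ (P : E → Prop) (st : List E × Finset E),
      GInvB M (fun e => thr i (eff (blkM M blk (blk e)) s) < eff (blkM M blk (blk e)) v e)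
        P st.2 →
      GInvB M (fun e => thr i (eff (blkM M blk (blk e)) s) < eff (blkM M blk (blk e)) v e)
        (fun x => P x ∨ x ∈ l)
        (l.foldl (step M (thrRuleB M blk L) i s v) st).2 := by
  induction l with
  | nil =>
    intro P st h
    simpa using h
  | cons a l ih =>
    intro P st h
    have h1 := ih _ _ (ginvB_step M blk L i s v P st a h)
    rw [List.foldl_cons]
    obtain ⟨g1, g2, g3⟩ := h1
    refine ⟨g1, g2, ?_⟩
    intro x hx
    apply g3 x
    rcases hx with hx | hx
    · exact Or.inl (Or.inl hx)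
    · rcases List.mem_cons.mp hx with rfl | hx
      · exact Or.inl (Or.inr rfl)
      · exact Or.inr hx

/-- The accepted set is a maximal independent subset of the set of elements above their block
threshold. -/
theorem run_specB (M : Matroid E) (blk : E → ℕ) (L : ℕ) (i : Fin (L + 1)) (s v : E → ℝ≥0)
    (order : List E) (hc : ∀ e, e ∈ order) :
    M.Indep ((run M (thrRuleB M blk L) i s v order : Finset E) : Set E) ∧
    (∀ e ∈ run M (thrRuleB M blk L) i s v order,
      thr i (eff (blkM M blk (blk e)) s) < eff (blkM M blk (blk e)) v e) ∧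
    (∀ e, thr i (eff (blkM M blk (blk e)) s) < eff (blkM M blk (blk e)) v e →
      e ∉ run M (thrRuleB M blk L) i s v order →
      ¬ M.Indep ((insert e (run M (thrRuleB M blk L) i s v order) : Finset E) : Set E)) := by
  have h0 : GInvB M
      (fun e => thr i (eff (blkM M blk (blk e)) s) < eff (blkM M blk (blk e)) v e)
      (fun _ => False) (([], ∅) : List E × Finset E).2 := by
    refine ⟨by simp, by simp, ?_⟩
    intro e he
    exact he.elim
  obtain ⟨g1, g2, g3⟩ := ginvB_foldl M blk L i s v order _ _ h0
  exact ⟨g1, g2, fun e he => g3 e (Or.inr (hc e)) he⟩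

end Vale.Agent.Lib.P331
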